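import Mathlib.Analysis.SpecialFunctions.Pow.Asymptotics
import Mathlib.Analysis.SpecialFunctions.Pow.Real
import Mathlib.Analysis.Complex.ExponentialBounds

/-! P181: numbers for the almost all corollary (LK). -/

namespace Vale.Agent.P181.H457

open Filter

theorem num8 : ∀ᶠ a : ℕ in atTop, ∀ b : ℕ, (10:ℝ)^8 * (a:ℝ) * (Real.log a)^2 ≤ b →
    (b:ℝ) ≤ (a:ℝ)^((8:ℝ)/7) → ∃ s : ℕ, 1 ≤ s ∧ 43680*(s+1)^2 ≤ b / a ∧
      (10:ℝ)^6 * (s:ℝ)^13 * ((b / a : ℕ) : ℝ)^6 * Real.log a ≤ a ∧ a * (a*b+17) ≤ 2^(s/4) := by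
  have hlog : Tendsto (fun a : ℕ => Real.log (a:ℝ)) atTop atTop :=
    Real.tendsto_log_atTop.comp tendsto_natCast_atTop_atTop
  have e1 : ∀ᶠ a : ℕ in atTop, 70 ≤ Real.log (a:ℝ) := hlog.eventually_ge_atTop 70
  have e2 : ∀ᶠ a : ℕ in atTop, (10:ℝ)^6 * 21^13 * (Real.log (a:ℝ))^14 ≤ (a:ℝ)^((1:ℝ)/7) := by
    have h := (isLittleO_log_rpow_rpow_atTop (s := (1:ℝ)/7) (14:ℝ) (by norm_num)).bound
      (show (0:ℝ) < 1 / ((10:ℝ)^6 * 21^13) by positivity)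
    have h' := tendsto_natCast_atTop_atTop.eventually h
    filter_upwards [h', e1, eventually_ge_atTop 1] with a ha h1 hge
    have hL : 0 ≤ Real.log (a:ℝ) := by linarith
    have h2 : ‖Real.log (a:ℝ) ^ (14:ℝ)‖ = (Real.log (a:ℝ))^14 := by
      rw [Real.norm_of_nonneg (Real.rpow_nonneg hL _)]
      exact_mod_cast Real.rpow_natCast (Real.log (a:ℝ)) 14
    have h3 : ‖(a:ℝ)^((1:ℝ)/7)‖ = (a:ℝ)^((1:ℝ)/7) :=
      Real.norm_of_nonneg (Real.rpow_nonneg (Nat.cast_nonneg a) _)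
    rw [h2, h3] at ha
    have h4 : (0:ℝ) < (10:ℝ)^6 * 21^13 := by positivity
    calc (10:ℝ)^6 * 21^13 * (Real.log (a:ℝ))^14
        ≤ (10:ℝ)^6 * 21^13 * (1 / ((10:ℝ)^6 * 21^13) * (a:ℝ)^((1:ℝ)/7)) :=
          mul_le_mul_of_nonneg_left ha h4.le
      _ = (a:ℝ)^((1:ℝ)/7) := by field_simp
  filter_upwards [e1, e2, eventually_ge_atTop 1] with a h1 h2 hge b hb1 hb2
  set L := Real.log (a:ℝ) with hLdef
  have hL0 : 0 < L := by linarith
  have ha0 : (0:ℝ) < a := by exact_mod_cast hge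
  have ha1 : (1:ℝ) ≤ a := by exact_mod_cast hge
  let s : ℕ := ⌈20 * L⌉₊
  have hs1 : 20 * L ≤ s := Nat.le_ceil _
  have hs2 : (s:ℝ) < 20 * L + 1 := Nat.ceil_lt_add_one (by positivity)
  have hs3 : (s:ℝ) + 1 ≤ 21 * L := by linarith
  have hs0 : (0:ℝ) ≤ s := Nat.cast_nonneg s
  refine ⟨s, ?_, ?_, ?_, ?_⟩
  · have : (1:ℝ) ≤ s := by linarith
    exact_mod_cast this
  · rw [Nat.le_div_iff_mul_le (by omega)]
    have h3 : (43680:ℝ) * ((s:ℝ)+1)^2 * a ≤ b := by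
      have h4 : ((s:ℝ)+1)^2 ≤ (21 * L)^2 := pow_le_pow_left₀ (by positivity) hs3 2
      calc (43680:ℝ) * ((s:ℝ)+1)^2 * a ≤ 43680 * (21 * L)^2 * a := by gcongr
        _ = (43680 * 441) * (a * L^2) := by ring
        _ ≤ (10:ℝ)^8 * (a * L^2) := by
            apply mul_le_mul_of_nonneg_right (by norm_num) (by positivity)
        _ = (10:ℝ)^8 * (a:ℝ) * L^2 := by ring
        _ ≤ b := hb1
    exact_mod_cast h3
  · have h5 : ((b / a : ℕ) : ℝ) ≤ (a:ℝ)^((1:ℝ)/7) := by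
      calc ((b / a : ℕ) : ℝ) ≤ (b:ℝ) / a := Nat.cast_div_le
        _ ≤ (a:ℝ)^((8:ℝ)/7) / a := by gcongr
        _ = (a:ℝ)^((1:ℝ)/7) := by
            rw [show ((8:ℝ)/7) = (1:ℝ)/7 + 1 by norm_num, Real.rpow_add ha0, Real.rpow_one]
            field_simp
    have h6 : ((b / a : ℕ) : ℝ)^6 ≤ ((a:ℝ)^((1:ℝ)/7))^6 :=
      pow_le_pow_left₀ (Nat.cast_nonneg _) h5 6
    have h7 : (s:ℝ)^13 ≤ (21 * L)^13 := pow_le_pow_left₀ hs0 (by linarith) 13
    have h8 : (0:ℝ) ≤ (a:ℝ)^((1:ℝ)/7) := Real.rpow_nonneg ha0.le _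
    calc (10:ℝ)^6 * (s:ℝ)^13 * ((b / a : ℕ) : ℝ)^6 * L
        ≤ (10:ℝ)^6 * (21 * L)^13 * ((a:ℝ)^((1:ℝ)/7))^6 * L := by gcongr
      _ = ((10:ℝ)^6 * 21^13 * L^14) * ((a:ℝ)^((1:ℝ)/7))^6 := by ring
      _ ≤ (a:ℝ)^((1:ℝ)/7) * ((a:ℝ)^((1:ℝ)/7))^6 :=
          mul_le_mul_of_nonneg_right h2 (by positivity)
      _ = ((a:ℝ)^((1:ℝ)/7))^7 := by ring
      _ = a := by
          rw [← Real.rpow_natCast, ← Real.rpow_mul ha0.le]
          norm_num
  · have h9 : (a:ℝ) * (a * b + 17) ≤ (2:ℝ)^(s/4) := by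
      have hexpa : Real.exp L = a := Real.exp_log ha0
      have hp : (a:ℝ)^((8:ℝ)/7) = Real.exp (8/7 * L) := by
        rw [Real.rpow_def_of_pos ha0, mul_comm]
      have hb3 : (b:ℝ) ≤ Real.exp (8/7 * L) := hp ▸ hb2
      have hone : (1:ℝ) ≤ Real.exp (8/7 * L) := Real.one_le_exp (by positivity)
      have h10 : (a:ℝ) * (a * b + 17) ≤ 18 * Real.exp (22/7 * L) := by
        have h11 : (a:ℝ) * b + 17 ≤ 18 * (Real.exp L * Real.exp (8/7 * L)) := by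
          have h12 : (a:ℝ) * b ≤ Real.exp L * Real.exp (8/7 * L) := by
            rw [hexpa]
            gcongr
          have h13 : (1:ℝ) ≤ Real.exp L * Real.exp (8/7 * L) :=
            one_le_mul_of_one_le_of_one_le (by rw [hexpa]; exact ha1) hone
          linarith
        calc (a:ℝ) * (a * b + 17) ≤ a * (18 * (Real.exp L * Real.exp (8/7 * L))) := by gcongr
          _ = 18 * (Real.exp L * Real.exp L * Real.exp (8/7 * L)) := by rw [← hexpa]; ring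
          _ = 18 * Real.exp (22/7 * L) := by
              rw [← Real.exp_add, ← Real.exp_add]
              ring_nf
      have h14 : (18:ℝ) ≤ Real.exp 17 := by
        have := Real.add_one_le_exp (17:ℝ)
        linarith
      have h15 : (2:ℝ)^(s/4) = Real.exp (Real.log 2 * (s/4 : ℕ)) := by
        rw [mul_comm, Real.exp_nat_mul, Real.exp_log (by norm_num)]
      have h16 : (5 * L - 1 : ℝ) ≤ ((s/4 : ℕ) : ℝ) := by
        have h17 : s ≤ 4 * (s/4) + 3 := by omega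
        have h18 : (s:ℝ) ≤ 4 * ((s/4 : ℕ) : ℝ) + 3 := by exact_mod_cast h17
        linarith
      have h19 : (0.68:ℝ) ≤ Real.log 2 := by
        have := Real.log_two_gt_d9
        linarith
      rw [h15]
      refine h10.trans ?_
      calc 18 * Real.exp (22/7 * L) ≤ Real.exp 17 * Real.exp (22/7 * L) := by gcongr
        _ = Real.exp (17 + 22/7 * L) := by rw [Real.exp_add]
        _ ≤ Real.exp (Real.log 2 * (s/4 : ℕ)) := by
            apply Real.exp_le_exp.2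
            have h20 : 0.68 * (5 * L - 1) ≤ Real.log 2 * ((s/4 : ℕ) : ℝ) :=
              mul_le_mul h19 h16 (by linarith) (by linarith)
            nlinarith
    exact_mod_cast h9

end Vale.Agent.P181.H457
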